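import Mathlib
import Vale.Agent.P252.Defs
import Vale.Agent.P252.Glue2
import Vale.Agent.P252.Complete

/-!
# P252: the affine Bernstein assertion fails in every dimension `n ≥ 10`
-/

open scoped ContDiff Topology
open Set Filter

namespace Vale.Agent.Results.P252.EntireCounterexample

open Vale.Agent.P252

/-- `√(y² + g₀²)` is not a quadratic polynomial in `y`. -/
lemma sqrt_not_quadratic {g₀ α β γ : ℝ} (hg : 0 < g₀)
    (h : ∀ y : ℝ, Real.sqrt (y ^ 2 + g₀ ^ 2) = α * y ^ 2 + β * y + γ) : False := by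
  have hsq : ∀ y : ℝ, y ^ 2 + g₀ ^ 2 = (α * y ^ 2 + β * y + γ) ^ 2 := by
    intro y
    rw [← h y, Real.sq_sqrt (by positivity)]
  have h0 := h 0
  have hγ : γ = g₀ := by
    have : Real.sqrt ((0 : ℝ) ^ 2 + g₀ ^ 2) = g₀ := by
      rw [zero_pow two_ne_zero, zero_add, Real.sqrt_sq hg.le]
    rw [this] at h0
    linarith
  have hβ : β = 0 := by
    have h1 := h 1
    have h2 := h (-1)
    have h3 : Real.sqrt ((1 : ℝ) ^ 2 + g₀ ^ 2) = Real.sqrt ((-1 : ℝ) ^ 2 + g₀ ^ 2) := by norm_num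
    rw [h1, h2] at h3
    linarith
  subst hγ hβ
  have h1 := hsq 1
  have h2 := hsq 2
  have hα : α ^ 2 = 0 := by nlinarith
  have hα0 : α = 0 := by simpa using hα
  subst hα0
  nlinarith

lemma U_not_quadratic {m : ℕ} {g : ℝ → ℝ} (hg : 0 < g 0) :
    ¬ IsQuadratic (RadialSol.U m g) := by
  rintro ⟨A, b, c, h⟩
  refine sqrt_not_quadratic (g₀ := g 0) (α := A 0 0 / 2) (β := b 0) (γ := c) hg ?_
  intro y
  have h1 := h (EuclideanSpace.single 0 y)
  have htt : tt (EuclideanSpace.single 0 y : Rn (m + 1)) = 0 := by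
    unfold tt
    simp
  have hlhs : RadialSol.U m g (EuclideanSpace.single 0 y) = Real.sqrt (y ^ 2 + g 0 ^ 2) := by
    unfold RadialSol.U RadialSol.F
    simp only [htt]
    simp
  rw [← hlhs, h1]
  simp
  ring

/-- In every dimension `n ≥ 10` there is a non-quadratic entire smooth solution of the affine
maximal equation with positive definite Hessian; its graph is Euclidean complete.
Hence (Q1), and its entire-graph form, fail for every `n ≥ 10`. -/
theorem result : ∀ n : ℕ, 10 ≤ n →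
    (∃ u : Rn n → ℝ, ContDiff ℝ ∞ u ∧ (∀ x, (hess u x).PosDef) ∧ AffineMaximalOn univ u ∧
      EuclideanComplete univ u ∧ ¬ IsQuadratic u) ∧
    ¬ AffineBernstein n ∧ ¬ EntireAffineBernstein n := by
  intro n hn
  obtain ⟨m, rfl⟩ : ∃ m, n = m + 1 := ⟨n - 1, by omega⟩
  have hm : 9 ≤ m := by omega
  obtain ⟨ε, g, A, K, h⟩ := exists_radialSol m hm
  have hg0 : 0 < g 0 := h.gpos 0 (by linarith [h.εpos])
  have hsm : ContDiff ℝ ∞ (RadialSol.U m g) := h.contDiff_U
  have hpd : ∀ x, (hess (RadialSol.U m g) x).PosDef := fun x => h.posDef_U x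
  have ham : AffineMaximalOn univ (RadialSol.U m g) := h.affineMaximal
  have hc : EuclideanComplete univ (RadialSol.U m g) :=
    euclideanComplete_univ (hsm.of_le (by exact_mod_cast le_top))
  have hnq : ¬ IsQuadratic (RadialSol.U m g) := U_not_quadratic hg0
  refine ⟨⟨RadialSol.U m g, hsm, hpd, ham, hc, hnq⟩, ?_, ?_⟩
  · intro hB
    obtain ⟨-, Q, b, c, -, hQ⟩ := hB univ (RadialSol.U m g) ⟨0, mem_univ _⟩ isOpen_univ
      convex_univ hsm.contDiffOn (fun x _ => hpd x) ham hc
    exact hnq ⟨Q, b, c, hQ⟩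
  · intro hB
    exact hnq (hB _ hsm hpd ham)

end Vale.Agent.Results.P252.EntireCounterexample
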